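import Vale.Agent.P143.Final

namespace Vale.Agent.Results.P143.FactorIID

open Vale.Agent.P143

theorem result :
    (∀ (Γ : Type) [Group Γ] (S : Finset Γ), Subgroup.closure (S : Set Γ) = ⊤ →
      ∃ Φ : (Γ → unitInterval) → Set (Sym2 Γ), Measurable Φ ∧
        (∀ U, Φ U ⊆ (SimpleGraph.mulCayley (S : Set Γ)).edgeSet) ∧
        (∀ (γ : Γ) (U : Γ → unitInterval),
          Φ (fun x => U (γ⁻¹ * x)) = Sym2.map (fun x => γ * x) '' Φ U) ∧
        IsFUSF (SimpleGraph.mulCayley (S : Set Γ)) ((iidUniform Γ).map Φ)) ∧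
    ∃ Φ : ∀ V : Type, SimpleGraph V → (V → unitInterval) → Set (Sym2 V),
      (∀ (V : Type) [Countable V], Measurable (Function.uncurry (Φ V))) ∧
      (∀ (V : Type) (G : SimpleGraph V) (U : V → unitInterval), Φ V G U ⊆ G.edgeSet) ∧
      (∀ (V W : Type) (G : SimpleGraph V) (G' : SimpleGraph W) (τ : G ≃g G')
        (U : V → unitInterval) (U' : W → unitInterval), (∀ v, U' (τ v) = U v) →
        ∀ e : Sym2 V, e.map τ ∈ Φ W G' U' ↔ e ∈ Φ V G U) ∧
      ∀ (V : Type) [Countable V] (G : SimpleGraph V), G.Connected →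
        (∀ v, (G.neighborSet v).Finite) → IsFUSF G ((iidUniform V).map (Φ V G)) :=
  ⟨fun _ _ _ hS => cayley_factor hS, graph_factor⟩

end Vale.Agent.Results.P143.FactorIID
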